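import Vale.Agent.P327.StepC

/-!
# P327: the Turing degrees are rigid

We use Mathlib's oracle computability (`TuringReducible f g` says that the function `f` is
recursive in the oracle `g`), applied to characteristic functions of sets of natural numbers.
-/

namespace Vale.Agent.Results.P327.Rigidity

open Classical in
/-- the characteristic function of a set of natural numbers (a total function) -/
noncomputable def charFn (A : Set ℕ) : ℕ →. ℕ := fun n => Part.some (if n ∈ A then 1 else 0)

/-- `A ≤_T B`: the characteristic function of `A` is computable from the characteristic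
function of `B` -/
def TuringLE (A B : Set ℕ) : Prop := TuringReducible (charFn A) (charFn B)

theorem TuringLE.refl (A : Set ℕ) : TuringLE A A := TuringReducible.refl _

theorem TuringLE.trans {A B C : Set ℕ} (h : TuringLE A B) (h' : TuringLE B C) : TuringLE A C :=
  TuringReducible.trans h h'

/-- Turing equivalence of sets of natural numbers -/
def turingSetoid : Setoid (Set ℕ) where
  r A B := TuringLE A B ∧ TuringLE B A
  iseqv := ⟨fun A => ⟨TuringLE.refl A, TuringLE.refl A⟩, fun h => ⟨h.2, h.1⟩,
    fun h h' => ⟨h.1.trans h'.1, h'.2.trans h.2⟩⟩

/-- the Turing degrees: equivalence classes of all subsets of ℕ -/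
def Degree : Type := Quotient turingSetoid

/-- the degree of a set -/
def degree (A : Set ℕ) : Degree := Quotient.mk turingSetoid A

/-- the ordering of the Turing degrees -/
instance : LE Degree where
  le := Quotient.lift₂ TuringLE fun _ _ _ _ h h' =>
    propext ⟨fun k => (h.2.trans k).trans h'.1, fun k => (h.1.trans k).trans h'.2⟩

theorem degree_le {A B : Set ℕ} : degree A ≤ degree B ↔ TuringLE A B := Iff.rfl

theorem degree_eq {A B : Set ℕ} : degree A = degree B ↔ TuringLE A B ∧ TuringLE B A :=
  ⟨fun h => Quotient.exact h, fun h => Quotient.sound h⟩

open Vale.Agent.P327 in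
theorem charFn_eq (A : Rl) : charFn {n | A n = true} = ora A := by
  funext n
  unfold charFn ora
  congr 1
  cases h : A n <;> simp [h]

open Vale.Agent.P327 in
theorem le_iff_TR {A B : Rl} :
    degree {n | A n = true} ≤ degree {n | B n = true} ↔ TR A B := by
  rw [degree_le]
  unfold TuringLE TuringReducible TR
  rw [charFn_eq, charFn_eq]
  exact RecursiveIn.iff_nat

/-- a characteristic function representing a degree -/
noncomputable def rep (d : Degree) : ℕ → Bool := fun n =>
  open Classical in decide (n ∈ Quotient.out d)

theorem degree_rep (d : Degree) : degree {n | rep d n = true} = d := by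
  have : {n | rep d n = true} = Quotient.out d := by
    ext n; simp [rep]
  rw [this]
  exact Quotient.out_eq d

theorem degree_ext {d e : Degree} (h : d ≤ e) (h' : e ≤ d) : d = e := by
  induction d using Quotient.inductionOn
  induction e using Quotient.inductionOn
  exact Quotient.sound ⟨h, h'⟩

open Vale.Agent.P327 in
/-- **Rigidity of the Turing degrees.** Every automorphism of the partial order of the Turing
degrees is the identity. -/
theorem result (π : Degree → Degree) (hbij : Function.Bijective π)
    (hπ : ∀ a b : Degree, a ≤ b ↔ π a ≤ π b) : ∀ a : Degree, π a = a := by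
  let e := Equiv.ofBijective π hbij
  have hsymm : ∀ a b : Degree, a ≤ b ↔ e.symm a ≤ e.symm b := by
    intro a b
    rw [hπ (e.symm a) (e.symm b)]
    show _ ↔ e (e.symm a) ≤ e (e.symm b)
    rw [e.apply_symm_apply, e.apply_symm_apply]
  let mk : Rl → Degree := fun A => degree {n | A n = true}
  have hmk : ∀ A B : Rl, mk A ≤ mk B ↔ TR A B := fun A B => le_iff_TR
  have hrep : ∀ d, mk (rep d) = d := degree_rep
  have hrefl : ∀ d : Degree, d ≤ d := by
    intro d
    rw [← hrep d]
    exact (hmk _ _).2 (TR.refl _)
  let a : Aut :=
    { f := fun A => rep (π (mk A))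
      g := fun A => rep (e.symm (mk A))
      mono := by
        intro A B
        rw [← hmk, ← hmk, hrep, hrep]
        exact hπ _ _
      gf1 := by
        intro A
        rw [← hmk, hrep, hrep]
        have : e.symm (π (mk A)) = mk A := e.symm_apply_apply (mk A)
        rw [this]; exact hrefl _
      gf2 := by
        intro A
        rw [← hmk, hrep, hrep]
        have : e.symm (π (mk A)) = mk A := e.symm_apply_apply (mk A)
        rw [this]; exact hrefl _
      fg1 := by
        intro A
        rw [← hmk, hrep, hrep]
        have : π (e.symm (mk A)) = mk A := e.apply_symm_apply (mk A)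
        rw [this]; exact hrefl _
      fg2 := by
        intro A
        rw [← hmk, hrep, hrep]
        have : π (e.symm (mk A)) = mk A := e.apply_symm_apply (mk A)
        rw [this]; exact hrefl _ }
  intro d
  have h := f_eq a (rep d)
  have h1 : mk (a.f (rep d)) ≤ mk (rep d) := (hmk _ _).2 h.1
  have h2 : mk (rep d) ≤ mk (a.f (rep d)) := (hmk _ _).2 h.2
  have h3 : mk (a.f (rep d)) = π d := by
    show mk (rep (π (mk (rep d)))) = π d
    rw [hrep, hrep]
  rw [h3, hrep] at h1 h2
  exact degree_ext h1 h2

end Vale.Agent.Results.P327.Rigidity
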